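import Vale.Agent.Lib.P038.Convenient

/-!
# Seymour's second neighbourhood inequality up to an explicit error term

`adj u v` means that `u → v` is an arc.  The oriented graph is given by an asymmetric relation
on a finite nonempty type.
-/

namespace Vale.Agent.Results.P038.AdditiveBadPairs

/-- Every nonempty finite oriented graph has a vertex `f` whose number of out-neighbours is at
most the number of vertices at distance exactly two plus an error term: every vertex `w ≠ f`
that is neither an out-neighbour of `f` nor at distance two from `f` contributes the number,
minus one (truncated at zero), of out-neighbours `x` of `f` that are not adjacent to `w` and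
lie outside the first and second out-neighbourhoods of some in-neighbour `v` of `w`. -/
theorem result (V : Type*) [Fintype V] [DecidableEq V] [Nonempty V]
    (adj : V → V → Prop) [DecidableRel adj]
    (hasym : ∀ u v, adj u v → ¬ adj v u) :
    ∃ f : V,
      (Finset.univ.filter (fun x => adj f x)).card ≤
        (Finset.univ.filter (fun w => w ≠ f ∧ ¬ adj f w ∧ ∃ u, adj f u ∧ adj u w)).card +
        ∑ w ∈ Finset.univ.filter (fun w => w ≠ f ∧ ¬ adj f w ∧ ¬ ∃ u, adj f u ∧ adj u w),
          ((Finset.univ.filter (fun x => adj f x ∧ ¬ adj x w ∧ ¬ adj w x ∧
              ∃ v, adj v w ∧ ¬ adj v x ∧ ¬ ∃ u, adj v u ∧ adj u x)).card - 1) :=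
  Vale.Agent.Lib.P038.ssnc_bad adj hasym

end Vale.Agent.Results.P038.AdditiveBadPairs
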