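import Vale.Agent.Lib.P038.Convenient

/-!
# Seymour's second neighbourhood conjecture when the bad non-adjacent pairs form a matching

`adj u v` means that `u → v` is an arc.  The oriented graph is given by an asymmetric relation
on a finite nonempty type.
-/

namespace Vale.Agent.Results.P038.BadPairsMatching

/-- `x` and `w` are distinct non-adjacent vertices neither of whose orientations is convenient:
some in-neighbour `v` of `x` has `w` outside its first and second out-neighbourhoods, and some
in-neighbour `v` of `w` has `x` outside its first and second out-neighbourhoods. -/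
def BadPair {V : Type*} (adj : V → V → Prop) (x w : V) : Prop :=
  x ≠ w ∧ ¬ adj x w ∧ ¬ adj w x ∧
    (∃ v, adj v x ∧ ¬ adj v w ∧ ¬ ∃ u, adj v u ∧ adj u w) ∧
    (∃ v, adj v w ∧ ¬ adj v x ∧ ¬ ∃ u, adj v u ∧ adj u x)

/-- If every vertex lies in at most one bad pair, then some vertex has at least as many
vertices at distance exactly two as out-neighbours. -/
theorem result (V : Type*) [Fintype V] [DecidableEq V] [Nonempty V]
    (adj : V → V → Prop) [DecidableRel adj]
    (hasym : ∀ u v, adj u v → ¬ adj v u)
    (hbad : ∀ w x y : V, BadPair adj x w → BadPair adj y w → x = y) :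
    ∃ v : V,
      (Finset.univ.filter (fun x => adj v x)).card ≤
        (Finset.univ.filter (fun w => w ≠ v ∧ ¬ adj v w ∧ ∃ u, adj v u ∧ adj u w)).card :=
  Vale.Agent.Lib.P038.ssnc_bad_matching adj hasym hbad

end Vale.Agent.Results.P038.BadPairsMatching
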